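import Vale.Agent.Lib.P037.BU.Defs

namespace Vale.Agent.Lib.P037.BU

open Finset Vale.Agent.Lib.P037

theorem nx_pos (s : ℕ) (δ : ℝ) (hδ : 0 < δ) : 0 < nx s δ := by
  unfold nx
  positivity

theorem nx_le (s : ℕ) (hs : 1 ≤ s) (δ : ℝ) (hδ : 0 < δ) (hδ1 : δ ≤ 1) : nx s δ ≤ δ := by
  unfold nx
  have h1 : (1 : ℝ) ≤ (s.factorial : ℝ) := by
    exact_mod_cast Nat.succ_le_of_lt (Nat.factorial_pos s)
  have h2 : (δ / 2) ^ s ≤ (δ / 2) ^ 1 :=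
    pow_le_pow_of_le_one (by positivity) (by linarith) hs
  have h3 : (δ / 2) ^ s / (s.factorial : ℝ) ≤ (δ / 2) ^ s :=
    div_le_self (by positivity) h1
  rw [pow_one] at h2
  linarith

/-- `nx` maps a monomial to a monomial -/
private theorem nx_monomial (s : ℕ) (c : ℝ) (e : ℕ) (δ : ℝ) :
    nx s (c * δ ^ e) = ((c / 2) ^ s / (s.factorial : ℝ)) * δ ^ (e * s) := by
  unfold nx
  rw [pow_mul, show c * δ ^ e / 2 = (c / 2) * δ ^ e by ring, mul_pow]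
  ring

/-- pure arithmetic: the two lower bounds are at least a monomial in `δ`. -/
theorem arith (k a a' b b' : ℕ) (ha : 1 ≤ a) (ha' : 1 ≤ a') (hb : 1 ≤ b) (hb' : 1 ≤ b')
    (hk : 1 ≤ k) :
    ∃ (c1 : ℝ) (E : ℕ), 0 < c1 ∧ 0 < E ∧ ∀ δ : ℝ, 0 < δ → δ ≤ 1 →
      c1 * δ ^ E ≤ nx b' (nx b (nx a' (nx a δ))) ∧
      c1 * δ ^ E ≤ (nx b (nx a' (nx a δ)) / (4 * k)) ^ (2 * k) := by
  obtain ⟨K1, hK1⟩ : ∃ K1 : ℝ, K1 = ((1 : ℝ) / 2) ^ a / (a.factorial : ℝ) := ⟨_, rfl⟩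
  obtain ⟨K2, hK2⟩ : ∃ K2 : ℝ, K2 = (K1 / 2) ^ a' / (a'.factorial : ℝ) := ⟨_, rfl⟩
  obtain ⟨K3, hK3⟩ : ∃ K3 : ℝ, K3 = (K2 / 2) ^ b / (b.factorial : ℝ) := ⟨_, rfl⟩
  obtain ⟨K4, hK4⟩ : ∃ K4 : ℝ, K4 = (K3 / 2) ^ b' / (b'.factorial : ℝ) := ⟨_, rfl⟩
  obtain ⟨K5, hK5⟩ : ∃ K5 : ℝ, K5 = (K3 / (4 * k)) ^ (2 * k) := ⟨_, rfl⟩
  have p1 : 0 < K1 := by rw [hK1]; positivity
  have p2 : 0 < K2 := by rw [hK2]; positivity
  have p3 : 0 < K3 := by rw [hK3]; positivity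
  have p4 : 0 < K4 := by rw [hK4]; positivity
  have hk0 : (0 : ℝ) < (k : ℝ) := by exact_mod_cast hk
  have p5 : 0 < K5 := by rw [hK5]; positivity
  have e1 : ∀ δ : ℝ, nx a δ = K1 * δ ^ (1 * a) := by
    intro δ
    have := nx_monomial a 1 1 δ
    rw [pow_one, one_mul] at this
    rw [this, hK1]
  have e2 : ∀ δ : ℝ, nx a' (nx a δ) = K2 * δ ^ (1 * a * a') := by
    intro δ
    rw [e1, nx_monomial, hK2]
  have e3 : ∀ δ : ℝ, nx b (nx a' (nx a δ)) = K3 * δ ^ (1 * a * a' * b) := by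
    intro δ
    rw [e2, nx_monomial, hK3]
  have e4 : ∀ δ : ℝ, nx b' (nx b (nx a' (nx a δ))) = K4 * δ ^ (1 * a * a' * b * b') := by
    intro δ
    rw [e3, nx_monomial, hK4]
  have e5 : ∀ δ : ℝ, (nx b (nx a' (nx a δ)) / (4 * k)) ^ (2 * k)
      = K5 * δ ^ (1 * a * a' * b * (2 * k)) := by
    intro δ
    rw [e3, hK5, pow_mul δ (1 * a * a' * b) (2 * k), show K3 * δ ^ (1 * a * a' * b) / (4 * (k : ℝ))
      = (K3 / (4 * k)) * δ ^ (1 * a * a' * b) by ring, mul_pow]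
  have hm : 0 < 1 * a * a' * b := by positivity
  refine ⟨min K4 K5, 1 * a * a' * b * (b' * (2 * k)), lt_min p4 p5, by positivity, ?_⟩
  intro δ hδ hδ1
  have hE : 0 ≤ δ ^ (1 * a * a' * b * (b' * (2 * k))) := by positivity
  constructor
  · rw [e4]
    have hle : 1 * a * a' * b * b' ≤ 1 * a * a' * b * (b' * (2 * k)) := by
      rw [← mul_assoc]
      exact Nat.le_mul_of_pos_right _ (by omega)
    calc min K4 K5 * δ ^ (1 * a * a' * b * (b' * (2 * k)))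
        ≤ K4 * δ ^ (1 * a * a' * b * (b' * (2 * k))) :=
          mul_le_mul_of_nonneg_right (min_le_left _ _) hE
      _ ≤ K4 * δ ^ (1 * a * a' * b * b') :=
          mul_le_mul_of_nonneg_left (pow_le_pow_of_le_one hδ.le hδ1 hle) p4.le
  · rw [e5]
    have hle : 1 * a * a' * b * (2 * k) ≤ 1 * a * a' * b * (b' * (2 * k)) :=
      Nat.mul_le_mul_left _ (Nat.le_mul_of_pos_left _ (by omega))
    calc min K4 K5 * δ ^ (1 * a * a' * b * (b' * (2 * k)))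
        ≤ K5 * δ ^ (1 * a * a' * b * (b' * (2 * k))) :=
          mul_le_mul_of_nonneg_right (min_le_right _ _) hE
      _ ≤ K5 * δ ^ (1 * a * a' * b * (2 * k)) :=
          mul_le_mul_of_nonneg_left (pow_le_pow_of_le_one hδ.le hδ1 hle) p5.le

end Vale.Agent.Lib.P037.BU
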