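import Vale.Agent.Lib.P037.BU.Defs

namespace Vale.Agent.Lib.P037.BU

open Finset Vale.Agent.Lib.P037

theorem numCopies_le_cntE1 {n : ℕ} (H0 : Matrix (Fin 2) (Fin 2) Bool)
    (A : Matrix (Fin n) (Fin n) Bool) : numCopies H0 A ≤ cntE (R1 H0 A) := by
  unfold numCopies cntE
  refine Nat.card_le_card_of_injective
    (fun p => ⟨(p.1.1 0, (p.1.1 1, p.1.2 0, p.1.2 1)), ?_⟩) ?_
  · obtain ⟨hf, hg, hA⟩ := p.2
    exact ⟨hf (by decide), hg (by decide), hA 0 0, hA 0 1, hA 1 0, hA 1 1⟩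
  · rintro ⟨⟨f, g⟩, hp⟩ ⟨⟨f', g'⟩, hq⟩ h
    simp only [Subtype.mk.injEq, Prod.mk.injEq] at h
    obtain ⟨h1, h2, h3, h4⟩ := h
    apply Subtype.ext
    apply Prod.ext
    · funext i
      fin_cases i
      · exact h1
      · exact h2
    · funext i
      fin_cases i
      · exact h3
      · exact h4

theorem cntS1_le_cntE2 {n : ℕ} (a : ℕ) (H0 : Matrix (Fin 2) (Fin 2) Bool)
    (A : Matrix (Fin n) (Fin n) Bool) : cntS a (R1 H0 A) ≤ cntE (R2 a H0 A) := by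
  unfold cntS cntE
  refine Nat.card_le_card_of_injective
    (fun p => ⟨(p.1.2.1, (p.1.1, p.1.2.2.1, p.1.2.2.2)), ?_⟩) ?_
  · exact ⟨p.2.1, fun i => p.2.2 i⟩
  · rintro ⟨⟨X, r, c, c'⟩, hp⟩ ⟨⟨X', r', e, e'⟩, hq⟩ h
    have h0 := congrArg Subtype.val h
    dsimp only at h0
    simp only [Prod.mk.injEq] at h0
    obtain ⟨h1, h2, h3, h4⟩ := h0
    subst h1 h2 h3 h4
    rfl

theorem cntS2_le_cntE3 {n : ℕ} (a a' : ℕ) (H0 : Matrix (Fin 2) (Fin 2) Bool)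
    (A : Matrix (Fin n) (Fin n) Bool) : cntS a' (R2 a H0 A) ≤ cntE (R3 a a' H0 A) := by
  unfold cntS cntE
  refine Nat.card_le_card_of_injective
    (fun p => ⟨(p.1.2.2.1, (p.1.1, p.1.2.1, p.1.2.2.2)), ?_⟩) ?_
  · exact ⟨p.2.1, fun i => p.2.2 i⟩
  · rintro ⟨⟨X, r, c, c'⟩, hp⟩ ⟨⟨X', r', e, e'⟩, hq⟩ h
    have h0 := congrArg Subtype.val h
    dsimp only at h0
    simp only [Prod.mk.injEq] at h0
    obtain ⟨h1, h2, h3, h4⟩ := h0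
    subst h1 h2 h3 h4
    rfl

theorem cntS3_le_cntE4 {n : ℕ} (a a' b : ℕ) (H0 : Matrix (Fin 2) (Fin 2) Bool)
    (A : Matrix (Fin n) (Fin n) Bool) : cntS b (R3 a a' H0 A) ≤ cntE (R4 a a' b H0 A) := by
  unfold cntS cntE
  refine Nat.card_le_card_of_injective
    (fun p => ⟨(p.1.2.2.2, (p.1.1, p.1.2.1, p.1.2.2.1)), ?_⟩) ?_
  · exact ⟨p.2.1, fun i => p.2.2 i⟩
  · rintro ⟨⟨X, r, c, c'⟩, hp⟩ ⟨⟨X', r', e, e'⟩, hq⟩ h
    have h0 := congrArg Subtype.val h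
    dsimp only at h0
    simp only [Prod.mk.injEq] at h0
    obtain ⟨h1, h2, h3, h4⟩ := h0
    subst h1 h2 h3 h4
    rfl

end Vale.Agent.Lib.P037.BU
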