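import Vale.Agent.Lib.P037.BU.Step
import Vale.Agent.Lib.P037.BU.ChainInj
import Vale.Agent.Lib.P037.BU.Arith

namespace Vale.Agent.Lib.P037.BU

open Finset Vale.Agent.Lib.P037

/-- four steps. -/
theorem chain {n : ℕ} (a a' b b' : ℕ) (ha : 1 ≤ a) (ha' : 1 ≤ a') (hb : 1 ≤ b) (hb' : 1 ≤ b')
    (H0 : Matrix (Fin 2) (Fin 2) Bool) (A : Matrix (Fin n) (Fin n) Bool)
    (δ : ℝ) (hδ : 0 < δ) (hδ1 : δ ≤ 1)
    (hN : δ * (n : ℝ) ^ 4 ≤ (numCopies H0 A : ℝ))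
    (hn : 2 * ((a + a' + b + b' : ℕ) : ℝ) ≤ nx b (nx a' (nx a δ)) * (n : ℝ)) :
    nx b' (nx b (nx a' (nx a δ))) * (n : ℝ) ^ (a + a' + b + b') ≤
      (cntS b' (R4 a a' b H0 A) : ℝ) := by
  obtain ⟨d1, hd1⟩ : ∃ d1 : ℝ, d1 = nx a δ := ⟨_, rfl⟩
  obtain ⟨d2, hd2⟩ : ∃ d2 : ℝ, d2 = nx a' d1 := ⟨_, rfl⟩
  obtain ⟨d3, hd3⟩ : ∃ d3 : ℝ, d3 = nx b d2 := ⟨_, rfl⟩
  rw [← hd1, ← hd2, ← hd3] at hn ⊢
  have p1 : 0 < d1 := hd1 ▸ nx_pos a δ hδ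
  have l1 : d1 ≤ δ := hd1 ▸ nx_le a ha δ hδ hδ1
  have p2 : 0 < d2 := hd2 ▸ nx_pos a' d1 p1
  have l2 : d2 ≤ d1 := hd2 ▸ nx_le a' ha' d1 p1 (l1.trans hδ1)
  have p3 : 0 < d3 := hd3 ▸ nx_pos b d2 p2
  have l3 : d3 ≤ d2 := hd3 ▸ nx_le b hb d2 p2 ((l2.trans l1).trans hδ1)
  have hn0 : (0 : ℝ) ≤ (n : ℝ) := Nat.cast_nonneg n
  have hsum : ((a + a' + b + b' : ℕ) : ℝ) = (a : ℝ) + a' + b + b' := by push_cast; ring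
  rw [hsum] at hn
  have ca : (0 : ℝ) ≤ (a : ℝ) := Nat.cast_nonneg a
  have ca' : (0 : ℝ) ≤ (a' : ℝ) := Nat.cast_nonneg a'
  have cb : (0 : ℝ) ≤ (b : ℝ) := Nat.cast_nonneg b
  have cb' : (0 : ℝ) ≤ (b' : ℝ) := Nat.cast_nonneg b'
  have m3 : d3 * (n : ℝ) ≤ d2 * (n : ℝ) := mul_le_mul_of_nonneg_right l3 hn0
  have m2 : d2 * (n : ℝ) ≤ d1 * (n : ℝ) := mul_le_mul_of_nonneg_right l2 hn0
  have m1 : d1 * (n : ℝ) ≤ δ * (n : ℝ) := mul_le_mul_of_nonneg_right l1 hn0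
  -- cardinalities
  have c1 : (Fintype.card (Fin n × Fin n × Fin n) : ℝ) = (n : ℝ) * ((n : ℝ) * (n : ℝ)) := by
    simp [Fintype.card_prod]
  have c2 : (Fintype.card ((Fin a → Fin n) × Fin n × Fin n) : ℝ)
      = (n : ℝ) ^ a * ((n : ℝ) * (n : ℝ)) := by
    simp [Fintype.card_prod]
  have c3 : (Fintype.card ((Fin a' → Fin n) × (Fin a → Fin n) × Fin n) : ℝ)
      = (n : ℝ) ^ a' * ((n : ℝ) ^ a * (n : ℝ)) := by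
    simp [Fintype.card_prod]
  have c4 : (Fintype.card ((Fin b → Fin n) × (Fin a' → Fin n) × (Fin a → Fin n)) : ℝ)
      = (n : ℝ) ^ b * ((n : ℝ) ^ a' * (n : ℝ) ^ a) := by
    simp [Fintype.card_prod]
  -- step 1
  have s1 := step a ha (R1 H0 A) δ hδ (by
    rw [c1]
    have h1 : (numCopies H0 A : ℝ) ≤ (cntE (R1 H0 A) : ℝ) := by
      exact_mod_cast numCopies_le_cntE1 H0 A
    calc δ * (n : ℝ) * ((n : ℝ) * ((n : ℝ) * (n : ℝ))) = δ * (n : ℝ) ^ 4 := by ring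
      _ ≤ _ := hN.trans h1) (by linarith)
  rw [c1, ← hd1] at s1
  -- step 2
  have s2 := step a' ha' (R2 a H0 A) d1 p1 (by
    rw [c2]
    have h1 : (cntS a (R1 H0 A) : ℝ) ≤ (cntE (R2 a H0 A) : ℝ) := by
      exact_mod_cast cntS1_le_cntE2 a H0 A
    calc d1 * (n : ℝ) * ((n : ℝ) ^ a * ((n : ℝ) * (n : ℝ)))
        = d1 * (n : ℝ) ^ a * ((n : ℝ) * ((n : ℝ) * (n : ℝ))) := by ring
      _ ≤ _ := s1.trans h1) (by linarith)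
  rw [c2, ← hd2] at s2
  -- step 3
  have s3 := step b hb (R3 a a' H0 A) d2 p2 (by
    rw [c3]
    have h1 : (cntS a' (R2 a H0 A) : ℝ) ≤ (cntE (R3 a a' H0 A) : ℝ) := by
      exact_mod_cast cntS2_le_cntE3 a a' H0 A
    calc d2 * (n : ℝ) * ((n : ℝ) ^ a' * ((n : ℝ) ^ a * (n : ℝ)))
        = d2 * (n : ℝ) ^ a' * ((n : ℝ) ^ a * ((n : ℝ) * (n : ℝ))) := by ring
      _ ≤ _ := s2.trans h1) (by linarith)
  rw [c3, ← hd3] at s3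
  -- step 4
  have s4 := step b' hb' (R4 a a' b H0 A) d3 p3 (by
    rw [c4]
    have h1 : (cntS b (R3 a a' H0 A) : ℝ) ≤ (cntE (R4 a a' b H0 A) : ℝ) := by
      exact_mod_cast cntS3_le_cntE4 a a' b H0 A
    calc d3 * (n : ℝ) * ((n : ℝ) ^ b * ((n : ℝ) ^ a' * (n : ℝ) ^ a))
        = d3 * (n : ℝ) ^ b * ((n : ℝ) ^ a' * ((n : ℝ) ^ a * (n : ℝ))) := by ring
      _ ≤ _ := s3.trans h1) (by linarith)
  rw [c4] at s4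
  calc nx b' d3 * (n : ℝ) ^ (a + a' + b + b')
      = nx b' d3 * (n : ℝ) ^ b' * ((n : ℝ) ^ b * ((n : ℝ) ^ a' * (n : ℝ) ^ a)) := by
        rw [pow_add, pow_add, pow_add]; ring
    _ ≤ _ := s4

end Vale.Agent.Lib.P037.BU
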