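import Vale.Agent.Lib.P037.All2

/-!
# P037: blow-ups of `2 × 2` patterns (definitions).  See notes/P037_blueprint3.md.
-/

namespace Vale.Agent.Lib.P037.BU

open Finset Vale.Agent.Lib.P037

/-- The `k × k` pattern with four constant blocks: the first `a` rows / first `b` columns are
copies of row `0` / column `0` of `H0`, the remaining ones are copies of row `1` / column `1`. -/
def blow (k a b : ℕ) (H0 : Matrix (Fin 2) (Fin 2) Bool) : Matrix (Fin k) (Fin k) Bool :=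
  fun i j => H0 (if i.val < a then 0 else 1) (if j.val < b then 0 else 1)

/-- `(r1, r2, c1, c2)` is an ordered copy of `H0` in `A`. -/
def T {n : ℕ} (H0 : Matrix (Fin 2) (Fin 2) Bool) (A : Matrix (Fin n) (Fin n) Bool)
    (r1 r2 c1 c2 : Fin n) : Prop :=
  r1 < r2 ∧ c1 < c2 ∧ A r1 c1 = H0 0 0 ∧ A r1 c2 = H0 0 1 ∧ A r2 c1 = H0 1 0 ∧ A r2 c2 = H0 1 1

/-- generic counting: pairs `(x, y)` with `R x y`. -/
noncomputable def cntE {n : ℕ} {β : Type} [Fintype β] (R : Fin n → β → Prop) : ℕ :=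
  Nat.card {p : Fin n × β // R p.1 p.2}

/-- generic counting: pairs `(X, y)` with `X` a strictly increasing `s`-tuple, all `R (X i) y`. -/
noncomputable def cntS {n : ℕ} {β : Type} [Fintype β] (s : ℕ) (R : Fin n → β → Prop) : ℕ :=
  Nat.card {p : (Fin s → Fin n) × β // StrictMono p.1 ∧ ∀ i, R (p.1 i) p.2}

/-- relation of step 1: `x = r1`, `y = (r2, c1, c2)`. -/
def R1 {n : ℕ} (H0 : Matrix (Fin 2) (Fin 2) Bool) (A : Matrix (Fin n) (Fin n) Bool) :
    Fin n → Fin n × Fin n × Fin n → Prop :=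
  fun r1 y => T H0 A r1 y.1 y.2.1 y.2.2

/-- relation of step 2: `x = r2`, `y = (X1, c1, c2)`. -/
def R2 {n : ℕ} (a : ℕ) (H0 : Matrix (Fin 2) (Fin 2) Bool) (A : Matrix (Fin n) (Fin n) Bool) :
    Fin n → (Fin a → Fin n) × Fin n × Fin n → Prop :=
  fun r2 y => StrictMono y.1 ∧ ∀ i, T H0 A (y.1 i) r2 y.2.1 y.2.2

/-- relation of step 3: `x = c1`, `y = (X2, X1, c2)`. -/
def R3 {n : ℕ} (a a' : ℕ) (H0 : Matrix (Fin 2) (Fin 2) Bool) (A : Matrix (Fin n) (Fin n) Bool) :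
    Fin n → (Fin a' → Fin n) × (Fin a → Fin n) × Fin n → Prop :=
  fun c1 y => StrictMono y.1 ∧ ∀ i', R2 a H0 A (y.1 i') (y.2.1, c1, y.2.2)

/-- relation of step 4: `x = c2`, `y = (Y1, X2, X1)`. -/
def R4 {n : ℕ} (a a' b : ℕ) (H0 : Matrix (Fin 2) (Fin 2) Bool) (A : Matrix (Fin n) (Fin n) Bool) :
    Fin n → (Fin b → Fin n) × (Fin a' → Fin n) × (Fin a → Fin n) → Prop :=
  fun c2 y => StrictMono y.1 ∧ ∀ j, R3 a a' H0 A (y.1 j) (y.2.1, y.2.2, c2)

/-- the density after one blow-up step with multiplicity `s`. -/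
noncomputable def nx (s : ℕ) (δ : ℝ) : ℝ := (δ / 2) ^ s / (s.factorial : ℝ)

end Vale.Agent.Lib.P037.BU
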