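import Vale.Agent.Lib.P037.BU.Defs

namespace Vale.Agent.Lib.P037.BU

open Finset Vale.Agent.Lib.P037

/-- an `H0`-free matrix is free of every blow-up of `H0`. -/
theorem isFree_blow {n : ℕ} (k a b : ℕ) (ha : 0 < a) (hak : a < k) (hb : 0 < b) (hbk : b < k)
    (H0 : Matrix (Fin 2) (Fin 2) Bool) (B : Matrix (Fin n) (Fin n) Bool) (h : IsFree H0 B) :
    IsFree (blow k a b H0) B := by
  unfold IsFree numCopies at h ⊢
  rw [Nat.card_eq_zero] at h ⊢
  left
  constructor
  rintro ⟨⟨f, g⟩, hf, hg, hA⟩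
  have hemp : IsEmpty {p : (Fin 2 → Fin n) × (Fin 2 → Fin n) // IsCopy H0 B p.1 p.2} := by
    rcases h with h | h
    · exact h
    · exact absurd (inferInstance : Finite _) (not_finite_iff_infinite.mpr h)
  set i0 : Fin k := ⟨a - 1, by omega⟩ with hi0
  set i1 : Fin k := ⟨a, hak⟩ with hi1
  set j0 : Fin k := ⟨b - 1, by omega⟩ with hj0
  set j1 : Fin k := ⟨b, hbk⟩ with hj1
  have hi : i0 < i1 := by
    rw [Fin.lt_def]
    show a - 1 < a
    omega
  have hj : j0 < j1 := by
    rw [Fin.lt_def]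
    show b - 1 < b
    omega
  have a0 : (a - 1 < a) := by omega
  have b0 : (b - 1 < b) := by omega
  refine hemp.false ⟨(![f i0, f i1], ![g j0, g j1]), strictMono_pair (hf hi),
    strictMono_pair (hg hj), ?_⟩
  intro i j
  fin_cases i <;> fin_cases j
  · have := hA i0 j0
    simpa [blow, hi0, hj0, a0, b0] using this
  · have := hA i0 j1
    simpa [blow, hi0, hj1, a0] using this
  · have := hA i1 j0
    simpa [blow, hi1, hj0, b0] using this
  · have := hA i1 j1
    simpa [blow, hi1, hj1] using this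

/-- the constant matrix with value `!(H0 0 0)` is `H0`-free. -/
theorem isFree_const {n : ℕ} (H0 : Matrix (Fin 2) (Fin 2) Bool) :
    IsFree H0 (fun _ _ => !(H0 0 0) : Matrix (Fin n) (Fin n) Bool) := by
  unfold IsFree numCopies
  rw [Nat.card_eq_zero]
  left
  constructor
  rintro ⟨⟨f, g⟩, _, _, hA⟩
  have := hA 0 0
  simp at this

/-- hence the distance to blow-up-freeness is at most the distance to `H0`-freeness. -/
theorem dist_blow_le {n : ℕ} (k a b : ℕ) (ha : 0 < a) (hak : a < k) (hb : 0 < b) (hbk : b < k)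
    (H0 : Matrix (Fin 2) (Fin 2) Bool) (A : Matrix (Fin n) (Fin n) Bool) :
    dist (blow k a b H0) A ≤ dist H0 A := by
  have hne : {d : ℕ | ∃ B : Matrix (Fin n) (Fin n) Bool, IsFree H0 B ∧ hamming A B = d}.Nonempty :=
    ⟨_, _, isFree_const H0, rfl⟩
  obtain ⟨B, hB, hd⟩ := Nat.sInf_mem hne
  have h1 := dist_le (blow k a b H0) A B (isFree_blow k a b ha hak hb hbk H0 B hB)
  refine h1.trans (le_of_eq ?_)
  unfold dist
  rw [hd]

end Vale.Agent.Lib.P037.BU
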