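import Vale.Agent.Lib.P037.BU.Defs

namespace Vale.Agent.Lib.P037.BU

open Finset Vale.Agent.Lib.P037

/-- glue two tuples. -/
def glue {n : ℕ} (k a : ℕ) (X1 : Fin a → Fin n) (X2 : Fin (k - a) → Fin n) : Fin k → Fin n :=
  fun i => if h : i.val < a then X1 ⟨i.val, h⟩ else X2 ⟨i.val - a, by omega⟩

theorem glue_lt {n : ℕ} (k a : ℕ) (X1 : Fin a → Fin n) (X2 : Fin (k - a) → Fin n) (i : Fin k)
    (h : i.val < a) : glue k a X1 X2 i = X1 ⟨i.val, h⟩ := by
  unfold glue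
  rw [dif_pos h]

theorem glue_ge {n : ℕ} (k a : ℕ) (X1 : Fin a → Fin n) (X2 : Fin (k - a) → Fin n) (i : Fin k)
    (h : ¬ i.val < a) : glue k a X1 X2 i = X2 ⟨i.val - a, by omega⟩ := by
  unfold glue
  rw [dif_neg h]

theorem glue_strictMono {n : ℕ} (k a : ℕ) (X1 : Fin a → Fin n) (X2 : Fin (k - a) → Fin n)
    (h1 : StrictMono X1) (h2 : StrictMono X2) (h12 : ∀ i i', X1 i < X2 i') :
    StrictMono (glue k a X1 X2) := by
  intro i j hij
  have hij' : i.val < j.val := hij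
  by_cases hi : i.val < a
  · by_cases hj : j.val < a
    · rw [glue_lt k a X1 X2 i hi, glue_lt k a X1 X2 j hj]
      exact h1 hij'
    · rw [glue_lt k a X1 X2 i hi, glue_ge k a X1 X2 j hj]
      exact h12 _ _
  · have hj : ¬ j.val < a := by omega
    rw [glue_ge k a X1 X2 i hi, glue_ge k a X1 X2 j hj]
    apply h2
    show i.val - a < j.val - a
    omega

theorem glue_inj {n : ℕ} (k a : ℕ) (hak : a ≤ k) (X1 X1' : Fin a → Fin n)
    (X2 X2' : Fin (k - a) → Fin n) (h : glue k a X1 X2 = glue k a X1' X2') :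
    X1 = X1' ∧ X2 = X2' := by
  constructor
  · funext i
    have hi : i.val < k := lt_of_lt_of_le i.2 hak
    have h0 := congrFun h ⟨i.val, hi⟩
    rw [glue_lt k a X1 X2 ⟨i.val, hi⟩ i.2, glue_lt k a X1' X2' ⟨i.val, hi⟩ i.2] at h0
    exact h0
  · funext i
    have hi : i.val + a < k := by
      have := i.2
      omega
    have hn : ¬ (⟨i.val + a, hi⟩ : Fin k).val < a := by
      show ¬ i.val + a < a
      omega
    have h0 := congrFun h ⟨i.val + a, hi⟩
    rw [glue_ge k a X1 X2 ⟨i.val + a, hi⟩ hn, glue_ge k a X1' X2' ⟨i.val + a, hi⟩ hn] at h0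
    have he : ∀ hh : i.val + a - a < k - a, (⟨i.val + a - a, hh⟩ : Fin (k - a)) = i := by
      intro hh
      apply Fin.ext
      show i.val + a - a = i.val
      omega
    simp only [he] at h0
    exact h0

/-- every configuration counted after step 4 is an ordered copy of the blow-up. -/
theorem cntS4_le_numCopies {n : ℕ} (k a b : ℕ) (ha : 0 < a) (hak : a < k) (hb : 0 < b)
    (hbk : b < k) (H0 : Matrix (Fin 2) (Fin 2) Bool) (A : Matrix (Fin n) (Fin n) Bool) :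
    cntS (k - b) (R4 a (k - a) b H0 A) ≤ numCopies (blow k a b H0) A := by
  unfold cntS numCopies
  have key : ∀ p : {p : (Fin (k - b) → Fin n) ×
      ((Fin b → Fin n) × (Fin (k - a) → Fin n) × (Fin a → Fin n)) //
      StrictMono p.1 ∧ ∀ i, R4 a (k - a) b H0 A (p.1 i) p.2},
      IsCopy (blow k a b H0) A (glue k a p.1.2.2.2 p.1.2.2.1) (glue k b p.1.2.1 p.1.1) := by
    rintro ⟨⟨Y2, Y1, X2, X1⟩, hY2, hR⟩
    simp only
    have j0' : Fin (k - b) := ⟨0, by omega⟩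
    have j0 : Fin b := ⟨0, hb⟩
    have i0' : Fin (k - a) := ⟨0, by omega⟩
    have hT : ∀ (i : Fin a) (i' : Fin (k - a)) (j : Fin b) (j' : Fin (k - b)),
        T H0 A (X1 i) (X2 i') (Y1 j) (Y2 j') := fun i i' j j' => (((hR j').2 j).2 i').2 i
    have hY1 : StrictMono Y1 := (hR j0').1
    have hX2 : StrictMono X2 := ((hR j0').2 j0).1
    have hX1 : StrictMono X1 := (((hR j0').2 j0).2 i0').1
    refine ⟨glue_strictMono k a X1 X2 hX1 hX2 (fun i i' => (hT i i' j0 j0').1),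
      glue_strictMono k b Y1 Y2 hY1 hY2 (fun j j' => (hT ⟨0, ha⟩ i0' j j').2.1), ?_⟩
    intro i j
    unfold blow
    by_cases hi : i.val < a
    · by_cases hj : j.val < b
      · rw [glue_lt k a X1 X2 i hi, glue_lt k b Y1 Y2 j hj, if_pos hi, if_pos hj]
        exact (hT _ i0' _ j0').2.2.1
      · rw [glue_lt k a X1 X2 i hi, glue_ge k b Y1 Y2 j hj, if_pos hi, if_neg hj]
        exact (hT _ i0' j0 _).2.2.2.1
    · by_cases hj : j.val < b
      · rw [glue_ge k a X1 X2 i hi, glue_lt k b Y1 Y2 j hj, if_neg hi, if_pos hj]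
        exact (hT ⟨0, ha⟩ _ _ j0').2.2.2.2.1
      · rw [glue_ge k a X1 X2 i hi, glue_ge k b Y1 Y2 j hj, if_neg hi, if_neg hj]
        exact (hT ⟨0, ha⟩ _ j0 _).2.2.2.2.2
  refine Nat.card_le_card_of_injective
    (fun p => (⟨(glue k a p.1.2.2.2 p.1.2.2.1, glue k b p.1.2.1 p.1.1), key p⟩ :
      {p : (Fin k → Fin n) × (Fin k → Fin n) // IsCopy (blow k a b H0) A p.1 p.2})) ?_
  rintro ⟨⟨Y2, Y1, X2, X1⟩, h1⟩ ⟨⟨Y2', Y1', X2', X1'⟩, h2⟩ h
  have h' := congrArg Subtype.val h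
  simp only [Prod.mk.injEq] at h'
  obtain ⟨e1, e2⟩ := glue_inj k a hak.le _ _ _ _ h'.1
  obtain ⟨e3, e4⟩ := glue_inj k b hbk.le _ _ _ _ h'.2
  apply Subtype.ext
  simp only [Prod.mk.injEq]
  exact ⟨e4, e3, e2, e1⟩

end Vale.Agent.Lib.P037.BU
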