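import Vale.Agent.Lib.P037.BU.Free
import Vale.Agent.Lib.P037.BU.Chain
import Vale.Agent.Lib.P037.BU.Inject

namespace Vale.Agent.Lib.P037.BU

open Finset Vale.Agent.Lib.P037

/-- supersaturation: many copies of `H0` give many copies of the blow-up. -/
theorem blow_count (k a b : ℕ) (ha : 0 < a) (hak : a < k) (hb : 0 < b) (hbk : b < k)
    (H0 : Matrix (Fin 2) (Fin 2) Bool) :
    ∃ (c1 : ℝ) (E : ℕ), 0 < c1 ∧ 0 < E ∧ ∀ n : ℕ, 1 ≤ n → ∀ A : Matrix (Fin n) (Fin n) Bool,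
      ∀ δ : ℝ, 0 < δ → δ ≤ 1 → δ * (n : ℝ) ^ 4 ≤ (numCopies H0 A : ℝ) →
      1 ≤ numCopies (blow k a b H0) A →
      c1 * δ ^ E * (n : ℝ) ^ (2 * k) ≤ (numCopies (blow k a b H0) A : ℝ) := by
  obtain ⟨c1, E, hc1, hE, har⟩ :=
    arith k a (k - a) b (k - b) ha (by omega) hb (by omega) (by omega)
  refine ⟨c1, E, hc1, hE, ?_⟩
  intro n _hn A δ hδ hδ1 hN h1
  obtain ⟨h4, h3⟩ := har δ hδ hδ1
  have hd3 : 0 < nx b (nx (k - a) (nx a δ)) :=
    nx_pos _ _ (nx_pos _ _ (nx_pos _ _ hδ))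
  have hsum : a + (k - a) + b + (k - b) = 2 * k := by omega
  have hnk : (0 : ℝ) ≤ (n : ℝ) ^ (2 * k) := by positivity
  have hk0 : (0 : ℝ) < 4 * (k : ℝ) := by
    have : 0 < k := by omega
    positivity
  by_cases hcase : 4 * (k : ℝ) ≤ nx b (nx (k - a) (nx a δ)) * (n : ℝ)
  · have hch := chain (n := n) a (k - a) b (k - b) ha (by omega) hb (by omega) H0 A δ hδ hδ1 hN
      (by
        rw [hsum]
        push_cast
        linarith)
    rw [hsum] at hch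
    have hinj : (cntS (k - b) (R4 a (k - a) b H0 A) : ℝ) ≤ (numCopies (blow k a b H0) A : ℝ) := by
      exact_mod_cast cntS4_le_numCopies k a b ha hak hb hbk H0 A
    calc c1 * δ ^ E * (n : ℝ) ^ (2 * k)
        ≤ nx (k - b) (nx b (nx (k - a) (nx a δ))) * (n : ℝ) ^ (2 * k) :=
          mul_le_mul_of_nonneg_right h4 hnk
      _ ≤ (cntS (k - b) (R4 a (k - a) b H0 A) : ℝ) := hch
      _ ≤ _ := hinj
  · push Not at hcase
    have hlt : nx b (nx (k - a) (nx a δ)) / (4 * k) * (n : ℝ) ≤ 1 := by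
      rw [div_mul_eq_mul_div, div_le_one hk0]
      exact hcase.le
    have hnn : 0 ≤ nx b (nx (k - a) (nx a δ)) / (4 * k) * (n : ℝ) := by positivity
    have h1' : (1 : ℝ) ≤ (numCopies (blow k a b H0) A : ℝ) := by exact_mod_cast h1
    calc c1 * δ ^ E * (n : ℝ) ^ (2 * k)
        ≤ (nx b (nx (k - a) (nx a δ)) / (4 * k)) ^ (2 * k) * (n : ℝ) ^ (2 * k) :=
          mul_le_mul_of_nonneg_right h3 hnk
      _ = (nx b (nx (k - a) (nx a δ)) / (4 * k) * (n : ℝ)) ^ (2 * k) := (mul_pow _ _ _).symm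
      _ ≤ 1 := pow_le_one₀ hnn hlt
      _ ≤ _ := h1'

/-- the removal property passes from `H0` to its blow-ups. -/
theorem RP_blow_of (k a b : ℕ) (ha : 0 < a) (hak : a < k) (hb : 0 < b) (hbk : b < k)
    (H0 : Matrix (Fin 2) (Fin 2) Bool) (h : RP H0) : RP (blow k a b H0) := by
  obtain ⟨c0, C0, hc0, hC0, h0⟩ := h
  obtain ⟨c1, E, hc1, hE, hbc⟩ := blow_count k a b ha hak hb hbk H0
  have hm : 0 < min c0 1 := lt_min hc0 one_pos
  refine ⟨c1 * (min c0 1) ^ E, C0 * E, by positivity, Nat.mul_pos hC0 hE, ?_⟩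
  intro n hn ε hε hε1 A hdist
  have hd0 : ε ≤ dist H0 A := hdist.trans (dist_blow_le k a b ha hak hb hbk H0 A)
  have hcop := h0 n hn ε hε hε1 A hd0
  have hεC : 0 < ε ^ C0 := by positivity
  have hεC1 : ε ^ C0 ≤ 1 := pow_le_one₀ hε.le hε1.le
  have hδ : 0 < min c0 1 * ε ^ C0 := by positivity
  have hδ1 : min c0 1 * ε ^ C0 ≤ 1 := by
    calc min c0 1 * ε ^ C0 ≤ 1 * 1 :=
          mul_le_mul (min_le_right _ _) hεC1 hεC.le zero_le_one
      _ = 1 := one_mul _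
  have hN : min c0 1 * ε ^ C0 * (n : ℝ) ^ 4 ≤ (numCopies H0 A : ℝ) := by
    have h4 : (n : ℝ) ^ (2 * 2) = (n : ℝ) ^ 4 := by norm_num
    rw [h4] at hcop
    refine le_trans ?_ hcop
    have hn4 : (0 : ℝ) ≤ (n : ℝ) ^ 4 := by positivity
    exact mul_le_mul_of_nonneg_right
      (mul_le_mul_of_nonneg_right (min_le_left _ _) hεC.le) hn4
  have h1 : 1 ≤ numCopies (blow k a b H0) A :=
    one_le_numCopies_of_dist_pos _ A (lt_of_lt_of_le hε hdist)
  have hfin := hbc n hn A _ hδ hδ1 hN h1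
  have e1 : c1 * (min c0 1) ^ E * ε ^ (C0 * E) = c1 * (min c0 1 * ε ^ C0) ^ E := by
    rw [mul_pow, ← pow_mul]
    ring
  rw [e1]
  exact hfin

theorem RP_blow (k a b : ℕ) (ha : 0 < a) (hak : a < k) (hb : 0 < b) (hbk : b < k)
    (H0 : Matrix (Fin 2) (Fin 2) Bool) : RP (blow k a b H0) :=
  RP_blow_of k a b ha hak hb hbk H0 (RP_all2 H0)

end Vale.Agent.Lib.P037.BU
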