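import Vale.Agent.Lib.P037.BU.Defs

namespace Vale.Agent.Lib.P037.BU

open Finset Vale.Agent.Lib.P037

/-- strictly increasing `s`-tuples inside a set `S` of size `d`: at least `d.choose s`. -/
theorem card_strictMono_ge {n : ℕ} (s : ℕ) (S : Finset (Fin n)) :
    S.card.choose s ≤ Nat.card {X : Fin s → Fin n // StrictMono X ∧ ∀ i, X i ∈ S} := by
  classical
  rw [← Finset.card_powersetCard s S, ← Fintype.card_coe, ← Nat.card_eq_fintype_card]
  let F : {t // t ∈ Finset.powersetCard s S} →
      {X : Fin s → Fin n // StrictMono X ∧ ∀ i, X i ∈ S} := fun t =>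
    ⟨fun i => (t.1.orderEmbOfFin (Finset.mem_powersetCard.mp t.2).2) i,
      (t.1.orderEmbOfFin (Finset.mem_powersetCard.mp t.2).2).strictMono,
      fun i => (Finset.mem_powersetCard.mp t.2).1
        (Finset.orderEmbOfFin_mem t.1 (Finset.mem_powersetCard.mp t.2).2 i)⟩
  refine Nat.card_le_card_of_injective F ?_
  intro t u h
  have h1 : (fun i => (t.1.orderEmbOfFin (Finset.mem_powersetCard.mp t.2).2) i)
      = (fun i => (u.1.orderEmbOfFin (Finset.mem_powersetCard.mp u.2).2) i) :=
    congrArg Subtype.val h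
  apply Subtype.ext
  have ht := Finset.range_orderEmbOfFin t.1 (Finset.mem_powersetCard.mp t.2).2
  have hu := Finset.range_orderEmbOfFin u.1 (Finset.mem_powersetCard.mp u.2).2
  have h2 : Set.range (t.1.orderEmbOfFin (Finset.mem_powersetCard.mp t.2).2)
      = Set.range (u.1.orderEmbOfFin (Finset.mem_powersetCard.mp u.2).2) := by
    exact congrArg Set.range h1
  rw [ht, hu] at h2
  exact Finset.coe_injective h2

end Vale.Agent.Lib.P037.BU
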