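import Vale.Agent.Lib.P037.BU.Mono

namespace Vale.Agent.Lib.P037.BU

open Finset Vale.Agent.Lib.P037

/-- counting pairs fibrewise -/
theorem card_pairs_eq_sum {α β : Type} [Finite α] [Fintype β] (P : α → β → Prop) :
    Nat.card {p : α × β // P p.1 p.2} = ∑ y, Nat.card {x : α // P x y} := by
  rw [← Nat.card_sigma]
  refine Nat.card_congr ⟨fun p => ⟨p.1.2, ⟨p.1.1, p.2⟩⟩, fun q => ⟨(q.2.1, q.1), q.2.2⟩, ?_, ?_⟩
  · intro p
    rfl
  · intro q
    rfl

open Classical in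
/-- the fibre of `y` -/
noncomputable def nbr {n : ℕ} {β : Type} (R : Fin n → β → Prop) (y : β) : Finset (Fin n) :=
  univ.filter (fun x => R x y)

theorem mem_nbr {n : ℕ} {β : Type} (R : Fin n → β → Prop) (y : β) (x : Fin n) :
    x ∈ nbr R y ↔ R x y := by
  unfold nbr
  simp

theorem card_nbr {n : ℕ} {β : Type} (R : Fin n → β → Prop) (y : β) :
    Nat.card {x : Fin n // R x y} = (nbr R y).card := by
  classical
  rw [Nat.card_eq_fintype_card, Fintype.card_subtype]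
  unfold nbr
  congr 1

theorem cntE_eq {n : ℕ} {β : Type} [Fintype β] (R : Fin n → β → Prop) :
    cntE R = ∑ y, (nbr R y).card := by
  unfold cntE
  rw [card_pairs_eq_sum (fun x y => R x y)]
  exact Finset.sum_congr rfl fun y _ => card_nbr R y

theorem cntS_ge {n : ℕ} {β : Type} [Fintype β] (s : ℕ) (R : Fin n → β → Prop) :
    ∑ y, (nbr R y).card.choose s ≤ cntS s R := by
  unfold cntS
  rw [card_pairs_eq_sum (fun (X : Fin s → Fin n) y => StrictMono X ∧ ∀ i, R (X i) y)]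
  refine Finset.sum_le_sum fun y _ => ?_
  have h := card_strictMono_ge s (nbr R y)
  simp only [mem_nbr] at h
  exact h

/-- One blow-up step (Jensen). -/
theorem step {n : ℕ} {β : Type} [Fintype β] (s : ℕ) (hs : 1 ≤ s) (R : Fin n → β → Prop)
    (δ : ℝ) (hδ : 0 < δ)
    (hE : δ * (n : ℝ) * (Fintype.card β : ℝ) ≤ (cntE R : ℝ))
    (hn : 2 * (s : ℝ) ≤ δ * (n : ℝ)) :
    nx s δ * (n : ℝ) ^ s * (Fintype.card β : ℝ) ≤ (cntS s R : ℝ) := by
  obtain ⟨t, rfl⟩ : ∃ t, s = t + 1 := ⟨s - 1, by omega⟩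
  set B : ℝ := (Fintype.card β : ℝ) with hB
  have hB0 : 0 ≤ B := Nat.cast_nonneg _
  rcases hB0.eq_or_lt with hz | hpos
  · rw [← hz, mul_zero]
    exact Nat.cast_nonneg _
  set e : β → ℝ := fun y => (((nbr R y).card + 1 - (t + 1) : ℕ) : ℝ) with he
  have he0 : ∀ y, 0 ≤ e y := fun y => Nat.cast_nonneg _
  have he1 : ∀ y, ((nbr R y).card : ℝ) - ((t + 1 : ℕ) : ℝ) ≤ e y := by
    intro y
    have h1 : (nbr R y).card ≤ ((nbr R y).card + 1 - (t + 1)) + (t + 1) := by omega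
    have h2 : ((nbr R y).card : ℝ) ≤ (((nbr R y).card + 1 - (t + 1) : ℕ) : ℝ) + ((t + 1 : ℕ) : ℝ) := by
      exact_mod_cast h1
    simp only [he]
    linarith
  -- lower bound for the sum of the `e y`
  have hsum : δ * (n : ℝ) / 2 * B ≤ ∑ y, e y := by
    have h1 : ∑ y, (((nbr R y).card : ℝ) - ((t + 1 : ℕ) : ℝ)) ≤ ∑ y, e y :=
      Finset.sum_le_sum fun y _ => he1 y
    have h2 : ∑ y, (((nbr R y).card : ℝ) - ((t + 1 : ℕ) : ℝ)) = (cntE R : ℝ) - ((t + 1 : ℕ) : ℝ) * B := by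
      rw [Finset.sum_sub_distrib, cntE_eq, Nat.cast_sum, Finset.sum_const, Finset.card_univ,
        nsmul_eq_mul, hB, mul_comm]
    have h3 : ((t + 1 : ℕ) : ℝ) * B ≤ δ * (n : ℝ) / 2 * B :=
      mul_le_mul_of_nonneg_right (by linarith) hB0
    have h4 : δ * (n : ℝ) * B = δ * (n : ℝ) / 2 * B + δ * (n : ℝ) / 2 * B := by ring
    linarith
  -- power mean
  have hpm := pow_sum_div_card_le_sum_pow (s := (univ : Finset β)) (f := e) (fun y _ => he0 y) t
  rw [Finset.card_univ, ← hB] at hpm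
  have hD0 : 0 ≤ δ * (n : ℝ) / 2 * B := by positivity
  have hpow : (δ * (n : ℝ) / 2 * B) ^ (t + 1) ≤ (∑ y, e y) ^ (t + 1) :=
    pow_le_pow_left₀ hD0 hsum _
  have hlow : (δ * (n : ℝ) / 2) ^ (t + 1) * B ≤ ∑ y, e y ^ (t + 1) := by
    refine le_trans ?_ hpm
    rw [le_div_iff₀ (pow_pos hpos t)]
    calc (δ * (n : ℝ) / 2) ^ (t + 1) * B * B ^ t = (δ * (n : ℝ) / 2 * B) ^ (t + 1) := by
          rw [mul_pow, pow_succ B t]; ring
      _ ≤ _ := hpow
  -- binomial coefficients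
  have hfac : (0 : ℝ) < ((t + 1).factorial : ℝ) := by exact_mod_cast Nat.factorial_pos _
  have hch : ∑ y, e y ^ (t + 1) / ((t + 1).factorial : ℝ) ≤ (cntS (t + 1) R : ℝ) := by
    have h1 : ∑ y, e y ^ (t + 1) / ((t + 1).factorial : ℝ)
        ≤ ∑ y, (((nbr R y).card.choose (t + 1) : ℕ) : ℝ) :=
      Finset.sum_le_sum fun y _ => Nat.pow_le_choose (α := ℝ) (t + 1) (nbr R y).card
    have h2 : (∑ y, (((nbr R y).card.choose (t + 1) : ℕ) : ℝ)) ≤ (cntS (t + 1) R : ℝ) := by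
      rw [← Nat.cast_sum]
      exact_mod_cast cntS_ge (t + 1) R
    exact le_trans h1 h2
  refine le_trans ?_ hch
  rw [← Finset.sum_div, le_div_iff₀ hfac]
  unfold nx
  calc (δ / 2) ^ (t + 1) / ((t + 1).factorial : ℝ) * (n : ℝ) ^ (t + 1) * B * ((t + 1).factorial : ℝ)
      = (δ * (n : ℝ) / 2) ^ (t + 1) * B := by
        have : δ * (n : ℝ) / 2 = δ / 2 * (n : ℝ) := by ring
        rw [this, mul_pow]
        field_simp
    _ ≤ _ := hlow

end Vale.Agent.Lib.P037.BU
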